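import Vale.Agent.Lib.P150.Slow

open Filter MeasureTheory

namespace Vale.Agent.Results.P150.A_main

open Vale.Agent.Lib.P150 in
/-- At every fixed `β > 1`, with probability at least `1 - ε`, the spectral gap of Glauber dynamics
is at most `1 / (c n)` and the mixing time is at least `c n`. -/
theorem result (β : ℝ) (hβ : 1 < β) (ε : ℝ) (hε : 0 < ε) :
    ∃ c : ℝ, 0 < c ∧ ∀ᶠ n : ℕ in atTop,
      (disorder n) {g | ¬ (spectralGap β g ≤ 1 / (c * n) ∧
        ∀ t : ℝ, 0 ≤ t → t < c * n → ∃ x, 1 / 4 < tvToGibbs β g t x)} ≤ ENNReal.ofReal ε :=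
  slow_main β hβ ε hε

end Vale.Agent.Results.P150.A_main
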